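import Vale.Agent.P159.T1.D.Defs

/-!
The reflection `mir r` which exchanges the two tips: it preserves paths, arms and the height sums.
-/

open Filter Topology

namespace Vale.Agent.P159.T1.D.H857

open Vale.Agent.P159.T1.D Vale.Agent.P159.H353

@[simp] lemma mir_mir (r : ℕ) (f : Z2) : mir r (mir r f) = f := by
  ext
  · show (r : ℤ) - 1 - ((r : ℤ) - 1 - f.1) = f.1
    ring
  · rfl

lemma mir_inv (r : ℕ) : Function.Involutive (mir r) := mir_mir r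

lemma mir_inj {r : ℕ} {f g : Z2} (h : mir r f = mir r g) : f = g := (mir_inv r).injective h

/-- the reflection of the bonds -/
def mb (r : ℕ) (e : Bnd) : Bnd :=
  if e.2 then (((r : ℤ) - e.1.1, e.1.2), true) else (((r : ℤ) - 1 - e.1.1, e.1.2), false)

@[simp] lemma mb_mb (r : ℕ) (e : Bnd) : mb r (mb r e) = e := by
  obtain ⟨⟨i, j⟩, d⟩ := e
  cases d <;> simp [mb]

lemma mb_snd (r : ℕ) (e : Bnd) : (mb r e).2 = e.2 := by
  obtain ⟨⟨i, j⟩, d⟩ := e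
  cases d <;> simp [mb]

lemma mb_row (r : ℕ) (e : Bnd) : (mb r e).1.2 = e.1.2 := by
  obtain ⟨⟨i, j⟩, d⟩ := e
  cases d <;> simp [mb]

lemma mb_lr (r : ℕ) (e : Bnd) :
    (rt (mb r e) = mir r (rt e) ∧ lf (mb r e) = mir r (lf e) ∧ e.2 = false) ∨
      (rt (mb r e) = mir r (lf e) ∧ lf (mb r e) = mir r (rt e) ∧ e.2 = true) := by
  obtain ⟨⟨i, j⟩, d⟩ := e
  cases d
  · left
    simp [mb, rt, lf, mir]
  · right
    simp [mb, rt, lf, mir]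
    ring

lemma mem_SB {R r : ℕ} {f : Z2} : f ∈ SB R r ↔ (-(R : ℤ) ≤ f.1 ∧ f.1 < r + R) ∧
    (-(R : ℤ) ≤ f.2 ∧ f.2 < R) ∧ ¬ (f.2 = -1 ∧ (f.1 < 0 ∨ (r : ℤ) ≤ f.1)) := by
  unfold SB
  simp only [Finset.mem_filter, Finset.mem_product, Finset.mem_Ico]
  tauto

lemma mem_SB_mir {R r : ℕ} (f : Z2) : mir r f ∈ SB R r ↔ f ∈ SB R r := by
  rw [mem_SB, mem_SB]
  show ((-(R : ℤ) ≤ (r : ℤ) - 1 - f.1 ∧ (r : ℤ) - 1 - f.1 < r + R) ∧
    (-(R : ℤ) ≤ f.2 ∧ f.2 < R) ∧ ¬ (f.2 = -1 ∧ ((r : ℤ) - 1 - f.1 < 0 ∨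
      (r : ℤ) ≤ (r : ℤ) - 1 - f.1))) ↔ _
  omega

section paths

variable {U : Finset Z2} {r : ℕ}

lemma ne_mb (hU : ∀ f, mir r f ∈ U ↔ f ∈ U) (e : Bnd) :
    (lf (mb r e) ∉ U ∨ rt (mb r e) ∉ U) ↔ (lf e ∉ U ∨ rt e ∉ U) := by
  rcases mb_lr r e with ⟨h1, h2, -⟩ | ⟨h1, h2, -⟩
  · rw [h1, h2, hU, hU]
  · rw [h1, h2, hU, hU]
    exact or_comm

lemma mem_sides {f : Z2} {e : Bnd} : e ∈ sides f ↔ rt e = f ∨ lf e = f := by
  obtain ⟨⟨i, j⟩, d⟩ := e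
  obtain ⟨a, b⟩ := f
  unfold sides lf rt
  simp only [Finset.mem_insert, Finset.mem_singleton, Prod.mk.injEq]
  cases d with
  | true =>
    simp only [Bool.true_eq_false, and_false, false_or, and_true, if_true, Prod.mk.injEq]
    constructor
    · rintro (⟨h1, h2⟩ | ⟨h1, h2⟩)
      · exact Or.inl ⟨h1, h2⟩
      · exact Or.inr ⟨by omega, h2⟩
    · rintro (⟨h1, h2⟩ | ⟨h1, h2⟩)
      · exact Or.inl ⟨h1, h2⟩
      · exact Or.inr ⟨by omega, h2⟩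
  | false =>
    simp only [Bool.false_eq_true, and_false, or_false, and_true, if_false, Prod.mk.injEq]
    constructor
    · rintro (⟨h1, h2⟩ | ⟨h1, h2⟩)
      · exact Or.inr ⟨h1, h2⟩
      · exact Or.inl ⟨h1, by omega⟩
    · rintro (⟨h1, h2⟩ | ⟨h1, h2⟩)
      · exact Or.inr ⟨h1, by omega⟩
      · exact Or.inl ⟨h1, h2⟩

lemma mb_mem_sides {f : Z2} {e : Bnd} (h : e ∈ sides f) : mb r e ∈ sides (mir r f) := by
  rw [mem_sides] at h ⊢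
  rcases mb_lr r e with ⟨h1, h2, -⟩ | ⟨h1, h2, -⟩
  · rcases h with h | h
    · left; rw [h1, h]
    · right; rw [h2, h]
  · rcases h with h | h
    · right; rw [h2, h]
    · left; rw [h1, h]

lemma upp_mir_of (hU : ∀ f, mir r f ∈ U ↔ f ∈ U) {f : Z2} (h : f ∈ upp U) : mir r f ∈ upp U := by
  obtain ⟨e, he, h0, h1⟩ := h
  exact ⟨mb r e, mb_mem_sides he, by rw [mb_row]; exact h0, (ne_mb hU e).2 h1⟩

lemma upp_mir (hU : ∀ f, mir r f ∈ U ↔ f ∈ U) (f : Z2) : mir r f ∈ upp U ↔ f ∈ upp U :=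
  ⟨fun h => by simpa using upp_mir_of hU h, upp_mir_of hU⟩

lemma low_mir_of (hU : ∀ f, mir r f ∈ U ↔ f ∈ U) {f : Z2} (h : f ∈ low U) : mir r f ∈ low U := by
  obtain ⟨e, he, h0, h1⟩ := h
  exact ⟨mb r e, mb_mem_sides he, by rw [mb_row]; exact h0, (ne_mb hU e).2 h1⟩

lemma low_mir (hU : ∀ f, mir r f ∈ U ↔ f ∈ U) (f : Z2) : mir r f ∈ low U ↔ f ∈ low U :=
  ⟨fun h => by simpa using low_mir_of hU h, low_mir_of hU⟩

lemma adj_mir (hU : ∀ f, mir r f ∈ U ↔ f ∈ U) {X : Set Z2} {f g : Z2} (h : adj U X f g) :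
    adj U (mir r ⁻¹' X) (mir r f) (mir r g) := by
  obtain ⟨⟨h1, h2⟩, ⟨h3, h4⟩, e, he⟩ := h
  refine ⟨⟨(hU f).2 h1, ?_⟩, ⟨(hU g).2 h3, ?_⟩, mb r e, ?_⟩
  · show mir r (mir r f) ∈ X
    rwa [mir_mir]
  · show mir r (mir r g) ∈ X
    rwa [mir_mir]
  · rcases mb_lr r e with ⟨h5, h6, -⟩ | ⟨h5, h6, -⟩
    · rcases he with ⟨h7, h8⟩ | ⟨h7, h8⟩
      · left; rw [h5, h6, h7, h8]; exact ⟨rfl, rfl⟩
      · right; rw [h5, h6, h7, h8]; exact ⟨rfl, rfl⟩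
    · rcases he with ⟨h7, h8⟩ | ⟨h7, h8⟩
      · right; rw [h5, h6, h7, h8]; exact ⟨rfl, rfl⟩
      · left; rw [h5, h6, h7, h8]; exact ⟨rfl, rfl⟩

lemma rtg_mir (hU : ∀ f, mir r f ∈ U ↔ f ∈ U) {X : Set Z2} {f g : Z2}
    (h : Relation.ReflTransGen (adj U X) f g) :
    Relation.ReflTransGen (adj U (mir r ⁻¹' X)) (mir r f) (mir r g) := by
  induction h with
  | refl => exact Relation.ReflTransGen.refl
  | tail _ h2 ih => exact ih.tail (adj_mir hU h2)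

lemma Jn_mir_of (hU : ∀ f, mir r f ∈ U ↔ f ∈ U) {X A B : Set Z2} (h : Jn U X A B) :
    Jn U (mir r ⁻¹' X) (mir r ⁻¹' A) (mir r ⁻¹' B) := by
  obtain ⟨a, ha, b, hb, ⟨h1, h2⟩, h3⟩ := h
  refine ⟨mir r a, ?_, mir r b, ?_, ⟨(hU a).2 h1, ?_⟩, rtg_mir hU h3⟩
  · show mir r (mir r a) ∈ A
    rwa [mir_mir]
  · show mir r (mir r b) ∈ B
    rwa [mir_mir]
  · show mir r (mir r a) ∈ X
    rwa [mir_mir]

@[simp] lemma pre_pre (r : ℕ) (A : Set Z2) : mir r ⁻¹' (mir r ⁻¹' A) = A := by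
  ext f
  show mir r (mir r f) ∈ A ↔ f ∈ A
  rw [mir_mir]

theorem Jn_mir (hU : ∀ f, mir r f ∈ U ↔ f ∈ U) (X A B : Set Z2) :
    Jn U (mir r ⁻¹' X) (mir r ⁻¹' A) (mir r ⁻¹' B) ↔ Jn U X A B :=
  ⟨fun h => by simpa using Jn_mir_of hU h, Jn_mir_of hU⟩

theorem Arm_mir (hU : ∀ f, mir r f ∈ U ↔ f ∈ U) (T Q N : Set Z2) :
    Arm U (mir r ⁻¹' T) (mir r ⁻¹' Q) (mir r ⁻¹' N) ↔ Arm U T Q N := by
  unfold Arm
  have h1 : upp U = mir r ⁻¹' upp U := by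
    ext f
    exact (upp_mir hU f).symm
  have h2 : mir r ⁻¹' N \ (mir r ⁻¹' T \ mir r ⁻¹' Q) = mir r ⁻¹' (N \ (T \ Q)) := rfl
  rw [h2]
  conv_lhs => rw [h1]
  exact Jn_mir hU _ _ _

end paths

/-! ### height sums -/

lemma mem_bd' {U : Finset Z2} {e : Bnd} : e ∈ bd U ↔ rt e ∈ U ∨ lf e ∈ U := by
  unfold bd
  rw [Finset.mem_biUnion]
  constructor
  · rintro ⟨f, hf, he⟩
    rcases mem_sides.1 he with h | h
    · left; rwa [h]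
    · right; rwa [h]
  · rintro (h | h)
    · exact ⟨_, h, mem_sides.2 (Or.inl rfl)⟩
    · exact ⟨_, h, mem_sides.2 (Or.inr rfl)⟩

section sums

variable {U U' : Finset Z2} {r : ℕ}

lemma mem_bd_mb (hU : ∀ f, f ∈ U' ↔ mir r f ∈ U) (e : Bnd) : e ∈ bd U' ↔ mb r e ∈ bd U := by
  rw [mem_bd', mem_bd', hU, hU]
  rcases mb_lr r e with ⟨h1, h2, -⟩ | ⟨h1, h2, -⟩
  · rw [h1, h2]
  · rw [h1, h2]
    exact or_comm

lemma wt_mir (b : ℝ) (hU : ∀ f, f ∈ U' ↔ mir r f ∈ U) (h : Z2 → ℤ) :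
    wt b U' 0 (fun f => h (mir r f)) = wt b U 0 h := by
  unfold wt
  refine Finset.prod_nbij' (mb r) (mb r) (fun e he => (mem_bd_mb hU e).1 he)
    (fun e he => (mem_bd_mb hU _).2 (by rwa [mb_mb])) (fun e _ => mb_mb r e)
    (fun e _ => mb_mb r e) fun e _ => ?_
  simp only [dh, Pi.zero_apply, add_zero]
  rcases mb_lr r e with ⟨h1, h2, -⟩ | ⟨h1, h2, -⟩
  · rw [h1, h2]
  · rw [h1, h2, ← wI_neg, neg_sub]

lemma ch_mir (hU : ∀ f, f ∈ U' ↔ mir r f ∈ U) (ρ : Z2 → ℝ) (h : Z2 → ℤ) :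
    ch U' (fun f => ρ (mir r f)) (fun f => h (mir r f)) = ch U ρ h := by
  unfold ch
  exact Finset.sum_nbij' (mir r) (mir r) (fun f hf => (hU f).1 hf)
    (fun f hf => (hU _).2 (by rwa [mir_mir])) (fun f _ => mir_mir r f)
    (fun f _ => mir_mir r f) fun f _ => rfl

/-- heights on the reflected set -/
def htE (hU : ∀ f, f ∈ U' ↔ mir r f ∈ U) : Ht U ≃ Ht U' where
  toFun h := ⟨fun f => h.1 (mir r f), fun f hf => h.2 _ fun h' => hf ((hU f).2 h')⟩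
  invFun h := ⟨fun f => h.1 (mir r f), fun f hf => h.2 _ fun h' => hf (by
    have := (hU _).1 h'
    rwa [mir_mir] at this)⟩
  left_inv h := by
    ext f
    show h.1 (mir r (mir r f)) = h.1 f
    rw [mir_mir]
  right_inv h := by
    ext f
    show h.1 (mir r (mir r f)) = h.1 f
    rw [mir_mir]

/-- **reflection of the charges and of the domain** -/
theorem Zρ_mir (b : ℝ) (hU : ∀ f, f ∈ U' ↔ mir r f ∈ U) (ρ : Z2 → ℝ) :
    Zρ b U' (fun f => ρ (mir r f)) = Zρ b U ρ := by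
  unfold Zρ
  rw [← (htE hU).tsum_eq]
  refine tsum_congr fun h => ?_
  show wt b U' 0 (fun f => h.1 (mir r f)) *
    Real.exp (ch U' (fun f => ρ (mir r f)) fun f => h.1 (mir r f)) = _
  rw [wt_mir b hU, ch_mir hU]

theorem Z_mir (b : ℝ) (hU : ∀ f, f ∈ U' ↔ mir r f ∈ U) : Z b U' = Z b U := by
  unfold Z
  rw [← (htE hU).tsum_eq]
  refine tsum_congr fun h => ?_
  exact wt_mir b hU h.1

/-- the form for the slit box with a reflected hole -/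
theorem Zρ_mir_SB (b : ℝ) {R : ℕ} {Q Q' : Finset Z2} (hQ : ∀ f, f ∈ Q' ↔ mir r f ∈ Q)
    (ρ : Z2 → ℝ) : Zρ b (SB R r \ Q') (fun f => ρ (mir r f)) = Zρ b (SB R r \ Q) ρ := by
  refine Zρ_mir b (fun f => ?_) ρ
  rw [Finset.mem_sdiff, Finset.mem_sdiff, hQ, mem_SB_mir]

end sums

end Vale.Agent.P159.T1.D.H857
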