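import Vale.Agent.P159.T1.H857.StarZ2
import Vale.Agent.P159.T1.D.Stmts

/-!
Row TOP: the two-point function of `ℤ²` is at least the ratio of the height sums of the slit box.
-/

open MeasureTheory Filter Topology

namespace Vale.Agent.P159.T1.D.H857

open Vale.Agent.P159 Vale.Agent.P159.T1.H254 Vale.Agent.P159.T1.D Vale.Agent.P159.T1.H857
open Vale.Agent.P159.H353 (wI wI_nonneg)

section path

variable {U : Finset (ℤ × ℤ)}

lemma path_right {i j : ℤ} (k : ℕ) (h : ∀ i', i ≤ i' → i' ≤ i + k → (i', j) ∉ U) :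
    Relation.ReflTransGen (adjO U) (i, j) (i + k, j) := by
  induction k with
  | zero => simpa using Relation.ReflTransGen.refl
  | succ k ih =>
    push_cast at h ⊢
    refine (ih fun i' h1 h2 => h i' h1 (by omega)).tail ⟨h _ (by omega) (by omega),
      h _ (by omega) (by omega), ((i + (k + 1), j), true), Or.inl ⟨?_, rfl⟩⟩
    show (i + ((k : ℤ) + 1) - 1, j) = (i + k, j)
    rw [Prod.mk.injEq]
    exact ⟨by ring, rfl⟩

lemma adjO_symm {f g : ℤ × ℤ} (h : adjO U f g) : adjO U g f := by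
  obtain ⟨h1, h2, e, h3 | h3⟩ := h
  · exact ⟨h2, h1, e, Or.inr h3⟩
  · exact ⟨h2, h1, e, Or.inl h3⟩

lemma path_symm {f g : ℤ × ℤ} (h : Relation.ReflTransGen (adjO U) f g) :
    Relation.ReflTransGen (adjO U) g f := by
  induction h with
  | refl => exact .refl
  | @tail a b _ hab ih => exact Relation.ReflTransGen.head (adjO_symm hab) ih

lemma path_left {i j : ℤ} (k : ℕ) (h : ∀ i', i - k ≤ i' → i' ≤ i → (i', j) ∉ U) :
    Relation.ReflTransGen (adjO U) (i, j) (i - k, j) := by
  have h1 := path_right (U := U) (i := i - k) (j := j) k (fun i' h1 h2 => h i' h1 (by omega))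
  rw [sub_add_cancel] at h1
  exact path_symm h1

lemma path_up {i j : ℤ} (k : ℕ) (h : ∀ j', j ≤ j' → j' ≤ j + k → (i, j') ∉ U) :
    Relation.ReflTransGen (adjO U) (i, j) (i, j + k) := by
  induction k with
  | zero => simpa using Relation.ReflTransGen.refl
  | succ k ih =>
    push_cast at h ⊢
    refine (ih fun i' h1 h2 => h i' h1 (by omega)).tail ⟨h _ (by omega) (by omega),
      h _ (by omega) (by omega), ((i, j + (k + 1)), false), Or.inr ⟨rfl, ?_⟩⟩
    show (i, j + ((k : ℤ) + 1) - 1) = (i, j + k)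
    rw [Prod.mk.injEq]
    exact ⟨rfl, by ring⟩

lemma mem_SBt {R r : ℕ} {i j : ℤ} : (i, j) ∈ SB R r ↔
    (-(R : ℤ) ≤ i ∧ i < r + R) ∧ (-(R : ℤ) ≤ j ∧ j < R) ∧ ¬ (j = -1 ∧ (i < 0 ∨ (r : ℤ) ≤ i)) := by
  unfold SB
  rw [Finset.mem_filter, Finset.mem_product, Finset.mem_Ico, Finset.mem_Ico, and_assoc]

theorem isSlit_SB {R r : ℕ} (hR : 1 ≤ R) (hr : 1 ≤ r) : IsSlit (SB R r) r where
  r_pos := by omega
  row i := by
    rw [mem_SBt]
    constructor
    · rintro ⟨h1, h2, h3⟩
      omega
    · rintro ⟨h1, h2⟩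
      omega
  conn M f hf := by
    obtain ⟨i, j⟩ := f
    have hleft : ∀ i j : ℤ, (∀ i', i' ≤ i → (i', j) ∉ SB R r) →
        ∃ g : ℤ × ℤ, g.1 < M ∧ Relation.ReflTransGen (adjO (SB R r)) (i, j) g := by
      intro i j h
      refine ⟨(i - ((i - M).toNat + 1 : ℕ), j), ?_, path_left _ fun i' _ h2 => h i' h2⟩
      show i - ((i - M).toNat + 1 : ℕ) < M
      omega
    have hright : ∀ i j : ℤ, (r : ℤ) + R ≤ i →
        ∃ g : ℤ × ℤ, g.1 < M ∧ Relation.ReflTransGen (adjO (SB R r)) (i, j) g := by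
      intro i j h
      have h1 := path_up (U := SB R r) (i := i) (j := j) (R - j).toNat (fun j' _ _ => by
        rw [mem_SBt]; omega)
      obtain ⟨g, hg, h2⟩ := hleft i (j + (R - j).toNat) (fun i' _ => by
        rw [mem_SBt]; omega)
      exact ⟨g, hg, h1.trans h2⟩
    by_cases h1 : (R : ℤ) ≤ j ∨ j < -R ∨ i < -R
    · refine hleft i j fun i' hi' => ?_
      rw [mem_SBt]
      omega
    by_cases h2 : (r : ℤ) + R ≤ i
    · exact hright i j h2
    rw [mem_SBt] at hf
    have h3 : j = -1 ∧ (i < 0 ∨ (r : ℤ) ≤ i) := by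
      by_contra h3
      apply hf
      refine ⟨⟨by omega, by omega⟩, ⟨by omega, by omega⟩, h3⟩
    obtain ⟨rfl, h3 | h3⟩ := h3
    · refine hleft i (-1) fun i' hi' => ?_
      rw [mem_SBt]
      omega
    · have h4 := path_right (U := SB R r) (i := i) (j := -1) (r + R - i).toNat
        (fun i' h5 _ => by rw [mem_SBt]; omega)
      obtain ⟨g, hg, h5⟩ := hright (i + (r + R - i).toNat) (-1) (by omega)
      exact ⟨g, hg, h4.trans h5⟩

end path

section top

variable {U : Finset (ℤ × ℤ)}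

lemma sec_one (e : Bnd) : sec U 1 e = nz U e := by
  unfold sec nz bs
  by_cases h : e.1.2 < 0
  · rw [if_pos h, if_neg (not_le.2 h)]
  · rw [if_neg h, if_pos (not_lt.1 h)]

lemma dh_inj {H H' : ℤ × ℤ → ℤ} (h0 : ∀ f, f ∉ U → H f = 0) (h0' : ∀ f, f ∉ U → H' f = 0)
    (h : ∀ e ∈ bd U, dh H e = dh H' e) : H = H' := by
  obtain ⟨M, hM⟩ := exists_left U
  have key : ∀ (k : ℕ) (f : ℤ × ℤ), f.1 < M + k → H f = H' f := by
    intro k
    induction k with
    | zero =>
      intro f hf
      have h1 : f ∉ U := fun h1 => by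
        have := hM f h1
        push_cast at hf
        omega
      rw [h0 f h1, h0' f h1]
    | succ k ih =>
      intro f hf
      by_cases h1 : f ∈ U
      · have h2 := h (f, true) (mem_bd.2 (Or.inr h1))
        have h3 := ih (f.1 - 1, f.2) (by
          show f.1 - 1 < M + k
          push_cast at hf
          omega)
        have h4 : H (f.1 - 1, f.2) - H f = H' (f.1 - 1, f.2) - H' f := h2
        omega
      · rw [h0 f h1, h0' f h1]
  funext f
  exact key (f.1 - M + 1).toNat f (by omega)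

lemma matJ_le {b : ℝ} (hb : 0 ≤ b) (u v : DA U) :
    matJ (pD (U := U)) qD (fun _ => b) u v ≤ nn b u.1 v.1 := by
  unfold matJ
  by_cases h : ∃ e : DE U, pD e = u ∧ qD e = v
  · obtain ⟨e, he1, he2⟩ := h
    rw [Finset.sum_eq_single e]
    · rw [if_pos ⟨he1, he2⟩]
      unfold nn
      rw [if_pos]
      rw [← he1, ← he2]
      show bt e.1 = bs e.1 + (1, 0) ∨ bt e.1 = bs e.1 + (0, 1)
      obtain ⟨⟨⟨i, j⟩, d⟩, he⟩ := e
      unfold bt bs
      cases d
      · left
        simp
      · right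
        simp
    · intro e' _ hne
      rw [if_neg]
      rintro ⟨h1, h2⟩
      apply hne
      have k1 : bs e'.1 = bs e.1 := congrArg Subtype.val (h1.trans he1.symm)
      have k2 : bt e'.1 = bt e.1 := congrArg Subtype.val (h2.trans he2.symm)
      apply Subtype.ext
      revert k1 k2
      obtain ⟨⟨⟨i, j⟩, d⟩, he⟩ := e
      obtain ⟨⟨⟨i', j'⟩, d'⟩, he'⟩ := e'
      unfold bt bs
      intro k1 k2
      simp only [Prod.mk.injEq] at k1
      obtain ⟨rfl, rfl⟩ := k1
      cases d <;> cases d' <;> simp at k2 ⊢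
    · intro h
      exact absurd (Finset.mem_univ _) h
  · rw [Finset.sum_eq_zero]
    · unfold nn
      split_ifs
      · exact hb
      · exact le_rfl
    · intro e _
      rw [if_neg]
      exact fun h1 => h ⟨e, h1⟩

theorem top_of {r : ℕ} (hU : IsSlit U r) {b : ℝ} (hb : 0 ≤ b) :
    Zs b U 1 0 ≤ corrInf b ((r : ℤ), 0) * Z b U := by
  have hch : ∀ v, chg (yD hU) (xD hU) 1 v = chg (xD hU) (yD hU) (-1) v := by
    intro v
    unfold chg
    split_ifs <;> ring
  obtain ⟨h1, h2, h3⟩ := corr_dual (H0 := Ht U) (H1 := Ht U) (pD (U := U)) qD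
    (J := fun _ => b) (fun _ => hb) (yD hU) (xD hU) (fun h e => dh h.1 e.1)
    (fun h e => dh h.1 e.1 + sec U 1 e.1)
    (fun h h' hh => Subtype.ext (dh_inj h.2 h'.2 fun e he => congrFun hh ⟨e, he⟩))
    (fun h h' hh => Subtype.ext (dh_inj h.2 h'.2 fun e he => by
      have := congrFun hh ⟨e, he⟩
      simp only at this
      linarith))
    (fun n => by
      have h1 := exact_U hU 0 n
      simp only [chg_zero, zero_add, zero_mul, sub_zero] at h1
      rw [h1]
      constructor
      · rintro ⟨H, h2, h3⟩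
        exact ⟨⟨H, h2⟩, funext fun e => h3 e⟩
      · rintro ⟨H, h2⟩
        exact ⟨H.1, H.2, fun e => congrFun h2 e⟩)
    (fun n => by
      have h1 := exact_U hU (-1) n
      rw [show (∀ v, chg (yD hU) (xD hU) 1 v + dvA pD qD n v = 0) ↔
        ∀ v, chg (xD hU) (yD hU) (-1) v + dvA pD qD n v = 0 from
        forall_congr' fun v => by rw [hch]]
      rw [h1]
      constructor
      · rintro ⟨H, h2, h3⟩
        refine ⟨⟨H, h2⟩, funext fun e => ?_⟩
        show dh H e.1 + sec U 1 e.1 = n e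
        rw [sec_one, ← h3 e]
        ring
      · rintro ⟨H, h2⟩
        refine ⟨H.1, H.2, fun e => ?_⟩
        have h3 : dh H.1 e.1 + sec U 1 e.1 = n e := congrFun h2 e
        rw [sec_one] at h3
        rw [← h3]
        ring)
  have e0 : ZHt (fun _ : DE U => b) (fun (h : Ht U) (e : DE U) => dh h.1 e.1) = Z b U := by
    unfold ZHt Z wt
    refine tsum_congr fun h => ?_
    rw [← Finset.prod_coe_sort (bd U)]
    simp
  have e1 : ZHt (fun _ : DE U => b) (fun (h : Ht U) (e : DE U) => dh h.1 e.1 + sec U 1 e.1) =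
      Zs b U 1 0 := by
    unfold ZHt Zs wt ch
    refine tsum_congr fun h => ?_
    rw [← Finset.prod_coe_sort (bd U)]
    simp
  rw [e0, e1] at h3
  rw [e0] at h1
  have hle : XY.corr (matJ (pD (U := U)) qD fun _ => b) (yD hU) (xD hU) ≤
      corrInf b ((r : ℤ), 0) := by
    rw [XY.corr_comm]
    have h4 : XY.corr (matJ (pD (U := U)) qD fun _ => b) (xD hU) (yD hU) =
        XY.corr (fun u v : DA U => (matJ (pD (U := U)) qD (fun _ => b) u v +
          matJ (pD (U := U)) qD (fun _ => b) v u) / 2) (xD hU) (yD hU) := by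
      unfold XY.corr XY.ev XY.un XY.part
      simp_rw [XY.energy_symm]
    have h5 : XY.corr (fun u v : DA U => (matJ (pD (U := U)) qD (fun _ => b) u v +
          matJ (pD (U := U)) qD (fun _ => b) v u) / 2) (xD hU) (yD hU) ≤
        XY.KS (AU U) b (0, 0) ((r : ℤ), 0) := by
      rw [XY.KS_of_mem b (zero_mem_AU hU) (r_mem_AU hU)]
      refine XY.corr_mono (fun u v => ?_) (fun u v => ?_) _ _
      · have := matJ_nonneg (p := pD (U := U)) (q := qD) (J := fun _ => b) (fun _ => hb) u v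
        have := matJ_nonneg (p := pD (U := U)) (q := qD) (J := fun _ => b) (fun _ => hb) v u
        positivity
      · have h6 := matJ_le hb u v
        have h7 := matJ_le hb v u
        unfold XY.A
        rw [XY.nn_eq] at h6 h7
        linarith
    rw [h4, XY.corrInf_eq hb]
    have h8 := XY.CI_eq hb (0, 0) ((r : ℤ), 0)
    have h9 : ((r : ℤ), (0 : ℤ)) - (0, 0) = ((r : ℤ), 0) := by simp
    rw [h9] at h8
    rw [← h8]
    exact h5.trans (XY.KS_le_CI _ hb _ _)
  rw [h3, div_le_iff₀ h1] at hle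
  exact hle

/-- **row TOP** -/
theorem stmtTop : StmtTop := fun _ _ _ hb hR hr => top_of (isSlit_SB (by omega) hr) hb.le

end top

end Vale.Agent.P159.T1.D.H857
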