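import Vale.Agent.P159.T1.D.Defs

/-!
The scalar half of the assembly of `StmtAxis`: the cells, the product over the cells, the
exponents and the final chain.
-/

open Filter Topology

namespace Vale.Agent.P159.T1.D.H857

open Vale.Agent.P159.T1.D

/-! ### cells -/

/-- the columns which bound the cells -/
def acell (q n : ℕ) : ℕ → ℕ
  | 0 => n
  | k + 1 => acell q n k + acell q n k / q

lemma acell_ge {q n : ℕ} (k : ℕ) : n ≤ acell q n k := by
  induction k with
  | zero => exact le_rfl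
  | succ k ih => exact ih.trans (Nat.le_add_right _ _)

lemma acell_lt {q n : ℕ} (hq : 1 ≤ q) (hn : q ≤ n) (k : ℕ) :
    acell q n k < acell q n (k + 1) := by
  have h1 : 1 ≤ acell q n k / q := (Nat.one_le_div_iff (by omega)).2 (hn.trans (acell_ge k))
  show acell q n k < acell q n k + acell q n k / q
  omega

lemma acell_strictMono {q n : ℕ} (hq : 1 ≤ q) (hn : q ≤ n) : StrictMono (acell q n) :=
  strictMono_nat_of_lt_succ (acell_lt hq hn)

lemma acell_succ_le {q n : ℕ} (k : ℕ) : acell q n (k + 1) ≤ 2 * acell q n k := by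
  have h1 : acell q n k / q ≤ acell q n k := Nat.div_le_self _ _
  show acell q n k + acell q n k / q ≤ 2 * acell q n k
  omega

lemma acell_grow {q n : ℕ} (hq : 1 ≤ q) (hn : q ≤ n) (k : ℕ) :
    (n : ℝ) * (1 + 1 / (2 * q)) ^ k ≤ acell q n k := by
  have hq' : (0 : ℝ) < q := by exact_mod_cast hq
  induction k with
  | zero => simp [acell]
  | succ k ih =>
    have h1 : acell q n k ≤ 2 * q * (acell q n k / q) := by
      have h2 : 1 ≤ acell q n k / q := (Nat.one_le_div_iff (by omega)).2 (hn.trans (acell_ge k))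
      have h3 := Nat.div_add_mod (acell q n k) q
      have h4 := Nat.mod_lt (acell q n k) (show 0 < q by omega)
      have h5 : q ≤ q * (acell q n k / q) := Nat.le_mul_of_pos_right _ h2
      calc acell q n k = q * (acell q n k / q) + acell q n k % q := h3.symm
        _ ≤ q * (acell q n k / q) + q * (acell q n k / q) := by omega
        _ = 2 * q * (acell q n k / q) := by ring
    have h2 : ((acell q n k : ℕ) : ℝ) ≤ 2 * q * ((acell q n k / q : ℕ) : ℝ) := by
      exact_mod_cast h1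
    have h3 : ((acell q n k : ℕ) : ℝ) * (1 / (2 * q)) ≤ ((acell q n k / q : ℕ) : ℝ) := by
      rw [mul_one_div, div_le_iff₀ (by positivity)]
      linarith
    have h4 : ((acell q n (k + 1) : ℕ) : ℝ) =
        (acell q n k : ℕ) + ((acell q n k / q : ℕ) : ℝ) := by
      show ((acell q n k + acell q n k / q : ℕ) : ℝ) = _
      push_cast
      ring
    rw [h4, pow_succ, ← mul_assoc]
    have h5 : (n : ℝ) * (1 + 1 / (2 * q)) ^ k * (1 + 1 / (2 * q)) ≤
        (acell q n k : ℕ) * (1 + 1 / (2 * (q : ℝ))) :=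
      mul_le_mul_of_nonneg_right ih (by positivity)
    linarith

/-- **the cells**: `K` small cells and one big cell `[a K, 2 a K)` -/
theorem cells {q n L : ℕ} (hq : 1 ≤ q) (hn : q ≤ n) (hL : n ≤ L) :
    ∃ (K : ℕ) (a : ℕ → ℕ), StrictMono a ∧ a 0 = n ∧ (∀ k < K, a (k + 1) = a k + a k / q) ∧
      a (K + 1) = 2 * a K ∧ a K ≤ L ∧ L < 2 * a K ∧ (∀ k ≤ K, n ≤ a k ∧ a k ≤ a K) ∧
      (K : ℝ) ≤ (2 * q + 1) * Real.log L := by
  classical
  have hq' : (0 : ℝ) < q := by exact_mod_cast hq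
  have hn0 : 1 ≤ n := hq.trans hn
  have hsm := acell_strictMono hq hn
  have hex : ∃ k, L < acell q n (k + 1) := ⟨L, lt_of_lt_of_le (Nat.lt_succ_self L) (hsm.id_le _)⟩
  set K := Nat.find hex with hK
  have h1 : L < acell q n (K + 1) := Nat.find_spec hex
  have h2 : acell q n K ≤ L := by
    rcases Nat.eq_zero_or_pos K with h | h
    · rw [h]; exact hL
    · have := Nat.find_min hex (m := K - 1) (by omega)
      rw [not_lt] at this
      rwa [show K - 1 + 1 = K by omega] at this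
  refine ⟨K, fun k => if k ≤ K then acell q n k else acell q n K * 2 + (k - (K + 1)), ?_, ?_,
    ?_, ?_, ?_, ?_, ?_, ?_⟩
  · refine strictMono_nat_of_lt_succ fun k => ?_
    rcases lt_trichotomy k K with h | h | h
    · simp only [h.le, if_true, Nat.succ_le_iff.2 h]
      exact acell_lt hq hn k
    · rw [h]
      simp only [le_refl, if_true, show ¬ (K + 1 ≤ K) by omega, if_false]
      have := acell_ge (q := q) (n := n) K
      omega
    · simp only [show ¬ (k ≤ K) by omega, show ¬ (k + 1 ≤ K) by omega, if_false]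
      omega
  · simp [acell]
  · intro k hk
    simp only [hk.le, if_true, Nat.succ_le_iff.2 hk]
    rfl
  · simp only [show ¬ (K + 1 ≤ K) by omega, if_false, le_refl, if_true]
    omega
  · simpa using h2
  · simp only [le_refl, if_true]
    exact lt_of_lt_of_le h1 (acell_succ_le K)
  · intro k hk
    simp only [hk, if_true, le_refl]
    exact ⟨acell_ge k, hsm.monotone hk⟩
  · have h3 := acell_grow hq hn K
    have h4 : (1 + 1 / (2 * (q : ℝ))) ^ K ≤ L := by
      calc (1 + 1 / (2 * (q : ℝ))) ^ K ≤ (n : ℝ) * (1 + 1 / (2 * q)) ^ K := by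
            refine le_mul_of_one_le_left (by positivity) (by exact_mod_cast hn0)
        _ ≤ acell q n K := h3
        _ ≤ L := by exact_mod_cast h2
    have h5 : (K : ℝ) * Real.log (1 + 1 / (2 * (q : ℝ))) ≤ Real.log L := by
      rw [← Real.log_pow]
      exact Real.log_le_log (by positivity) h4
    have h6 : 1 / (2 * (q : ℝ) + 1) ≤ Real.log (1 + 1 / (2 * (q : ℝ))) := by
      have h7 := Real.one_sub_inv_le_log_of_pos (x := 1 + 1 / (2 * (q : ℝ))) (by positivity)
      refine le_trans (le_of_eq ?_) h7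
      field_simp
      ring
    have h7 : (K : ℝ) * (1 / (2 * (q : ℝ) + 1)) ≤ Real.log L :=
      (mul_le_mul_of_nonneg_left h6 (Nat.cast_nonneg K)).trans h5
    rw [mul_one_div, div_le_iff₀ (by positivity)] at h7
    linarith

/-! ### the product over the cells -/

lemma exp_le_one_sub {t : ℝ} (h0 : 0 ≤ t) (h1 : t ≤ 1 / 2) : Real.exp (-(2 * t)) ≤ 1 - t := by
  have h2 : 0 < 1 - t := by linarith
  have h3 := Real.one_sub_inv_le_log_of_pos h2
  have h4 : -(2 * t) ≤ Real.log (1 - t) := by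
    refine le_trans ?_ h3
    have h5 : (1 - t)⁻¹ ≤ 1 + 2 * t := by
      rw [inv_le_comm₀ h2 (by linarith), inv_eq_one_div, div_le_iff₀ (by linarith)]
      nlinarith
    linarith
  calc Real.exp (-(2 * t)) ≤ Real.exp (Real.log (1 - t)) := Real.exp_le_exp.2 h4
    _ = 1 - t := Real.exp_log h2

/-- **the product over the cells** -/
theorem prod_cells {C p ε : ℝ} (hC : 0 ≤ C) (hp : 1 < p) (hε : 0 < ε) :
    ∃ q1 : ℕ, 1 ≤ q1 ∧ ∀ q ≥ q1, 0 ≤ C * (q : ℝ) ^ (-p) ∧ C * (q : ℝ) ^ (-p) ≤ 1 / 2 ∧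
      ∀ (r : ℝ) (K : ℕ), 1 ≤ r → (K : ℝ) ≤ (2 * q + 1) * Real.log r →
        r ^ (-ε) ≤ (1 - C * (q : ℝ) ^ (-p)) ^ (2 * K) := by
  have h1 : Tendsto (fun q : ℕ => C * (q : ℝ) ^ (-p)) atTop (𝓝 (C * 0)) :=
    ((tendsto_rpow_neg_atTop (by linarith)).comp tendsto_natCast_atTop_atTop).const_mul C
  have h2 : Tendsto (fun q : ℕ => (12 * C) * (q : ℝ) ^ (-(p - 1))) atTop (𝓝 (12 * C * 0)) :=
    ((tendsto_rpow_neg_atTop (by linarith)).comp tendsto_natCast_atTop_atTop).const_mul _
  rw [mul_zero] at h1 h2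
  have e1 := h1.eventually (ge_mem_nhds (show (0 : ℝ) < 1 / 2 by norm_num))
  have e2 := h2.eventually (ge_mem_nhds hε)
  obtain ⟨q1, hq1⟩ := eventually_atTop.1 (e1.and e2)
  refine ⟨max q1 1, le_max_right _ _, fun q hq => ?_⟩
  obtain ⟨h3, h4⟩ := hq1 q ((le_max_left _ _).trans hq)
  have hq' : 1 ≤ q := (le_max_right _ _).trans hq
  have hqr : (1 : ℝ) ≤ q := by exact_mod_cast hq'
  have h0 : 0 ≤ C * (q : ℝ) ^ (-p) := mul_nonneg hC (Real.rpow_nonneg (by linarith) _)
  refine ⟨h0, h3, fun r K hr hK => ?_⟩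
  set t := C * (q : ℝ) ^ (-p) with ht
  have hlog : 0 ≤ Real.log r := Real.log_nonneg hr
  have h5 : Real.exp (-(2 * t)) ^ (2 * K) ≤ (1 - t) ^ (2 * K) :=
    pow_le_pow_left₀ (Real.exp_pos _).le (exp_le_one_sub h0 h3) _
  refine le_trans ?_ h5
  rw [← Real.exp_nat_mul, Real.rpow_def_of_pos (by linarith)]
  refine Real.exp_le_exp.2 ?_
  have h6 : t * q = C * (q : ℝ) ^ (-(p - 1)) := by
    rw [ht, mul_assoc]
    congr 1
    rw [← Real.rpow_add_one (by linarith)]
    congr 1
    ring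
  have h7 : 4 * t * K ≤ ε * Real.log r := by
    calc 4 * t * K ≤ 4 * t * ((2 * q + 1) * Real.log r) :=
          mul_le_mul_of_nonneg_left hK (by linarith)
      _ ≤ 4 * t * ((3 * q) * Real.log r) := by
          refine mul_le_mul_of_nonneg_left ?_ (by linarith)
          exact mul_le_mul_of_nonneg_right (by linarith) hlog
      _ = 12 * (t * q) * Real.log r := by ring
      _ = 12 * C * (q : ℝ) ^ (-(p - 1)) * Real.log r := by rw [h6]; ring
      _ ≤ ε * Real.log r := mul_le_mul_of_nonneg_right h4 hlog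
  push_cast
  nlinarith

/-! ### exponents -/

lemma tendsto_ang : Tendsto ang atTop (𝓝 0) := by
  have h1 : Tendsto (fun q : ℕ => 1 / (q : ℝ)) atTop (𝓝 0) := tendsto_one_div_atTop_nhds_zero_nat
  have h2 := (Real.continuous_arctan.tendsto 0).comp h1
  rw [Real.arctan_zero] at h2
  exact h2

/-- **the exponent**: `V` slightly above `√(π Y / 2)` -/
theorem exponent {Y ε : ℝ} (hY : 0 < Y) (hε : 0 < ε) :
    ∃ V : ℝ, 0 < V ∧ 1 < 2 * V ^ 2 / (Real.pi * Y) ∧ ∃ q2 : ℕ, ∀ q ≥ q2,
      2 / Y * (V / (2 * Real.pi - ang q) - 1 / (4 * Real.pi)) ≤ 1 / 4 + ε := by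
  have hpi := Real.pi_pos
  set v := Real.sqrt (Real.pi * Y / 2) with hv
  have hv0 : 0 < v := Real.sqrt_pos.2 (by positivity)
  have hv2 : v ^ 2 = Real.pi * Y / 2 := Real.sq_sqrt (by positivity)
  set δ := ε * Real.pi * Y / 2 with hδ
  have hδ0 : 0 < δ := by positivity
  refine ⟨v + δ, by positivity, ?_, ?_⟩
  · rw [lt_div_iff₀ (by positivity)]
    nlinarith [mul_pos hv0 hδ0]
  · have h1 : Tendsto (fun q : ℕ => 2 / Y * ((v + δ) / (2 * Real.pi - ang q) -
        1 / (4 * Real.pi))) atTop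
        (𝓝 (2 / Y * ((v + δ) / (2 * Real.pi - 0) - 1 / (4 * Real.pi)))) := by
      refine (Tendsto.sub ?_ tendsto_const_nhds).const_mul _
      refine Tendsto.div tendsto_const_nhds (tendsto_const_nhds.sub tendsto_ang) ?_
      linarith
    have h2 : 2 / Y * ((v + δ) / (2 * Real.pi - 0) - 1 / (4 * Real.pi)) < 1 / 4 + ε := by
      have h3 : 2 / Y * ((v + δ) / (2 * Real.pi - 0) - 1 / (4 * Real.pi)) =
          (2 * v - 1) / (2 * Real.pi * Y) + δ / (Real.pi * Y) := by
        rw [sub_zero]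
        field_simp
        ring
      have h4 : δ / (Real.pi * Y) = ε / 2 := by
        rw [hδ]
        field_simp
      have h5 : (2 * v - 1) / (2 * Real.pi * Y) ≤ 1 / 4 := by
        rw [div_le_div_iff₀ (by positivity) (by norm_num)]
        nlinarith [sq_nonneg (v - 1)]
      rw [h3, h4]
      linarith
    exact (eventually_atTop.1 (h1.eventually (ge_mem_nhds h2)))

/-! ### the final chain -/

/-- from the output of `StmtMain`, `StmtTop`, `StmtUp`, `StmtLow` to the correlation -/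
theorem chain {Z0 Zr Zs0 Zs1 P C lo up : ℝ} (hZ : 0 < Z0) (hP : 0 ≤ P)
    (hmain : Z0 * Zr * P ≤ Zs0 * Zs1) (htop : Zs0 ≤ C * Z0) (hC : 0 ≤ C)
    (hs1 : 0 ≤ Zs1) (hup : Zs1 ≤ Real.exp up * Z0) (hlow : Real.exp lo * Z0 ≤ Zr) :
    Real.exp (lo - up) * P ≤ C := by
  have h1 : Z0 * (Real.exp lo * Z0) * P ≤ C * Z0 * (Real.exp up * Z0) := by
    calc Z0 * (Real.exp lo * Z0) * P ≤ Z0 * Zr * P :=
          mul_le_mul_of_nonneg_right (mul_le_mul_of_nonneg_left hlow hZ.le) hP
      _ ≤ Zs0 * Zs1 := hmain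
      _ ≤ (C * Z0) * Zs1 := mul_le_mul_of_nonneg_right htop hs1
      _ ≤ C * Z0 * (Real.exp up * Z0) :=
          mul_le_mul_of_nonneg_left hup (mul_nonneg hC hZ.le)
  have h2 : Real.exp lo * P ≤ C * Real.exp up := by
    have h3 : (Real.exp lo * P) * (Z0 * Z0) ≤ (C * Real.exp up) * (Z0 * Z0) := by
      calc (Real.exp lo * P) * (Z0 * Z0) = Z0 * (Real.exp lo * Z0) * P := by ring
        _ ≤ _ := h1
        _ = (C * Real.exp up) * (Z0 * Z0) := by ring
    exact le_of_mul_le_mul_right h3 (mul_pos hZ hZ)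
  rw [Real.exp_sub, div_mul_eq_mul_div, div_le_iff₀ (Real.exp_pos _)]
  exact h2

/-- `e^(lo - up)` as a power of `r` -/
theorem exp_pow {r Y En0 X ε C1 C2 e : ℝ} (hr : 1 ≤ r) (he : 2 / Y * X ≤ e) :
    Real.exp (-(C1 + C2)) * r ^ (-(e + 2 * ε)) ≤
      Real.exp ((2 * Real.log r / Y * En0 - ε * Real.log r - C1) -
        (2 * Real.log r / Y * (En0 + X) + ε * Real.log r + C2)) := by
  rw [Real.rpow_def_of_pos (by linarith), ← Real.exp_add]
  refine Real.exp_le_exp.2 ?_
  have hlog : 0 ≤ Real.log r := Real.log_nonneg hr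
  have h1 : 2 * Real.log r / Y * X ≤ e * Real.log r := by
    calc 2 * Real.log r / Y * X = 2 / Y * X * Real.log r := by ring
      _ ≤ e * Real.log r := mul_le_mul_of_nonneg_right he hlog
  nlinarith

end Vale.Agent.P159.T1.D.H857
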