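import Vale.Agent.P159.T1.D.H857.Mir

/-!
Supports of the bumps, the faces near the tips.
-/

open Filter Topology

namespace Vale.Agent.P159.T1.D.H857

open Vale.Agent.P159.T1.D Vale.Agent.P159.H353

lemma bump_nonneg {r : ℕ} {κ : ℝ} (hκ : 0 ≤ κ) (x y s : ℝ) (f : Z2) :
    0 ≤ bump r κ x y s f := by
  unfold bump
  positivity

/-- the bump lies in the strip -/
lemma bump_supp {r q a' : ℕ} {κ x y s x' : ℝ} (hs : 0 < s) (hr : 1 ≤ r)
    (hr' : 1 ≤ (r : ℝ) * (y - s))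
    (hq : (q : ℝ) * (y + s) < x - s) (hx : x + s < x') (ha : x' * r ≤ a') {f : Z2}
    (hf : f ∉ strip q 1 a') : bump r κ x y s f = 0 := by
  by_contra hne
  apply hf
  have hr0 : (0 : ℝ) < r := by exact_mod_cast hr
  have h1 : 0 < s ^ 2 - ((f.1 : ℝ) / r + x) ^ 2 - ((f.2 : ℝ) / r + y) ^ 2 := by
    by_contra h
    apply hne
    unfold bump
    rw [max_eq_left (not_lt.1 h)]
    simp
  have h2 : ((f.1 : ℝ) / r + x) ^ 2 < s ^ 2 := by nlinarith [sq_nonneg ((f.2 : ℝ) / r + y)]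
  have h3 : ((f.2 : ℝ) / r + y) ^ 2 < s ^ 2 := by nlinarith [sq_nonneg ((f.1 : ℝ) / r + x)]
  have h4 := abs_lt.1 (abs_lt_of_sq_lt_sq h2 hs.le)
  have h5 := abs_lt.1 (abs_lt_of_sq_lt_sq h3 hs.le)
  have e1 : (f.1 : ℝ) / r * r = f.1 := div_mul_cancel₀ _ hr0.ne'
  have e2 : (f.2 : ℝ) / r * r = f.2 := div_mul_cancel₀ _ hr0.ne'
  have k1 : (r : ℝ) * (x - s) < -(f.1 : ℝ) := by nlinarith [h4.2]
  have k2 : -(f.1 : ℝ) < r * (x + s) := by nlinarith [h4.1]
  have k3 : (r : ℝ) * (y - s) < -(f.2 : ℝ) := by nlinarith [h5.2]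
  have k4 : -(f.2 : ℝ) < r * (y + s) := by nlinarith [h5.1]
  have hq0 : (0 : ℝ) ≤ q := Nat.cast_nonneg q
  refine ⟨⟨?_, ?_⟩, ?_, ?_⟩
  · have : (f.2 : ℝ) < -1 := by linarith
    have : f.2 < -1 := by exact_mod_cast this
    omega
  · have h6 : (q : ℝ) * (-1 - f.2) ≤ -(f.1 : ℝ) := by
      have : (q : ℝ) * (-1 - f.2) ≤ q * (r * (y + s)) :=
        mul_le_mul_of_nonneg_left (by linarith) hq0
      nlinarith
    exact_mod_cast h6
  · have hys : 0 < y - s := by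
      by_contra h
      nlinarith
    have hxs : 0 ≤ (r : ℝ) * (x - s) := by
      have : 0 < x - s := lt_of_le_of_lt (mul_nonneg hq0 (by linarith)) hq
      positivity
    have : (0 : ℝ) < -(f.1 : ℝ) := by linarith
    have : (0 : ℤ) < -f.1 := by exact_mod_cast this
    show ((1 : ℕ) : ℤ) ≤ -f.1
    omega
  · have : -(f.1 : ℝ) < a' := by
      have : (r : ℝ) * (x + s) ≤ x' * r := by nlinarith
      linarith
    exact_mod_cast this

lemma mem_strip_mono {q a a' c c' : ℕ} (h1 : a' ≤ a) (h2 : c ≤ c') {f : Z2}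
    (hf : f ∈ strip q a c) : f ∈ strip q a' c' := by
  obtain ⟨h, h3, h4⟩ := hf
  refine ⟨h, ?_, ?_⟩
  · have : (a' : ℤ) ≤ a := by exact_mod_cast h1
    omega
  · have : (c : ℤ) ≤ c' := by exact_mod_cast h2
    omega

open Classical in
/-- the faces near the two tips -/
noncomputable def Ft (R r n : ℕ) : Finset Z2 :=
  (SB R r).filter fun f => f ∈ tip n ∨ mir r f ∈ tip n

open Classical in
lemma mem_Ft {R r n : ℕ} {f : Z2} : f ∈ Ft R r n ↔ f ∈ SB R r ∧ (f ∈ tip n ∨ mir r f ∈ tip n) :=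
  Finset.mem_filter

open Classical in
lemma Ft_sub (R r n : ℕ) : Ft R r n ⊆ SB R r := Finset.filter_subset _ _

open Classical in
lemma card_Ft (R r n : ℕ) : (Ft R r n).card ≤ 8 * n ^ 2 := by
  let T : Finset Z2 := Finset.Ico (-(n : ℤ)) n ×ˢ Finset.Ico (-(n : ℤ)) n
  have hT : T.card = 4 * n ^ 2 := by
    show (Finset.Ico (-(n : ℤ)) n ×ˢ Finset.Ico (-(n : ℤ)) n).card = _
    rw [Finset.card_product, Int.card_Ico]
    have : ((n : ℤ) - -n).toNat = 2 * n := by omega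
    rw [this]
    ring
  have hsub : Ft R r n ⊆ T ∪ T.image (mir r) := by
    intro f hf
    obtain ⟨-, h⟩ := mem_Ft.1 hf
    have key : ∀ g : Z2, g ∈ tip n → g ∈ T := by
      rintro g ⟨h1, h2, h3, h4⟩
      exact Finset.mem_product.2 ⟨Finset.mem_Ico.2 ⟨h1, h2⟩, Finset.mem_Ico.2 ⟨h3, h4⟩⟩
    rcases h with h | h
    · exact Finset.mem_union_left _ (key f h)
    · exact Finset.mem_union_right _ (Finset.mem_image.2 ⟨_, key _ h, mir_mir r f⟩)
  calc (Ft R r n).card ≤ (T ∪ T.image (mir r)).card := Finset.card_le_card hsub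
    _ ≤ T.card + (T.image (mir r)).card := Finset.card_union_le _ _
    _ ≤ T.card + T.card := Nat.add_le_add_left Finset.card_image_le _
    _ = 8 * n ^ 2 := by rw [hT]; ring

/-- the factor of the faces near the tips -/
theorem tip_prod {b p : ℝ} {R r n : ℕ} (hp : 0 < p) (hp1 : p ≤ 1)
    (h : ∀ (U : Finset Z2) (f : Z2), f ∈ U → p ≤ E b U fun h => if 1 ≤ h f then 1 else 0) :
    p ^ (8 * n ^ 2) ≤ ∏ f ∈ Ft R r n, E b (SB R r) fun h => if 1 ≤ h f then 1 else 0 := by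
  calc p ^ (8 * n ^ 2) ≤ p ^ (Ft R r n).card := pow_le_pow_of_le_one hp.le hp1 (card_Ft R r n)
    _ = ∏ _f ∈ Ft R r n, p := (Finset.prod_const p).symm
    _ ≤ _ := Finset.prod_le_prod (fun _ _ => hp.le) fun f hf => h _ f (Ft_sub R r n hf)

end Vale.Agent.P159.T1.D.H857
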